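import Vale.Agent.P157.Cube

/-!
P157: existence of the limiting free energy of the Ising Gaussian perceptron at every pattern
density for every potential `f` with `exp f = c - φ`, `φ` positive definite.
-/

namespace Vale.Agent.Results.P157.LimitExists

open MeasureTheory ProbabilityTheory Filter Topology

/-- the law of `M` independent standard Gaussian vectors in `ℝ^N` -/
noncomputable def patterns (M N : ℕ) : Measure (Fin M → Fin N → ℝ) :=
  Measure.pi fun _ => Measure.pi fun _ => gaussianReal 0 1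

/-- the configuration in `{-1, 1}^N` coded by `x` -/
noncomputable def spins {N : ℕ} (x : Fin N → Bool) (i : Fin N) : ℝ := if x i then 1 else -1

/-- `∫ exp (∑_a f (g^a · x / √N)) dμ_N(x)`, `μ_N` uniform on the cube `{-1, 1}^N` -/
noncomputable def Z (f : ℝ → ℝ) (M N : ℕ) (g : Fin M → Fin N → ℝ) : ℝ :=
  (∑ x : Fin N → Bool, Real.exp (∑ a, f ((∑ i, g a i * spins x i) / Real.sqrt N))) / 2 ^ N

/-- the pressure `p_N(f)` as a function of the patterns -/
noncomputable def pressure (f : ℝ → ℝ) (M N : ℕ) (g : Fin M → Fin N → ℝ) : ℝ :=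
  1 / N * Real.log (Z f M N g)

/-- the expected pressure `E p_N(f)` with `M = ⌊α N⌋` patterns -/
noncomputable def meanPressure (f : ℝ → ℝ) (α : ℝ) (N : ℕ) : ℝ :=
  ∫ g, pressure f ⌊α * N⌋₊ N g ∂(patterns ⌊α * N⌋₊ N)

/-- the potential `f(t) = log (c - ∫ cos (ξ t) dν(ξ))` -/
noncomputable def potential (c : ℝ) (ν : Measure ℝ) (t : ℝ) : ℝ :=
  Real.log (c - ∫ ξ, Real.cos (ξ * t) ∂ν)

theorem meanPressure_eq {U : ℝ → ℝ} (hU : Measurable U) {C : ℝ}
    (h1 : ∀ t, Real.exp (-C) ≤ U t) (h2 : ∀ t, U t ≤ Real.exp C) (α : ℝ) (N : ℕ) :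
    meanPressure (fun t => Real.log (U t)) α N = _root_.P157.aN U α N / N := by
  have hpos : ∀ t, 0 < U t := fun t => lt_of_lt_of_le (Real.exp_pos _) (h1 t)
  unfold meanPressure pressure _root_.P157.aN
  rw [← _root_.P157.link (_root_.P157.VU_GV hU h1 h2 N) (_root_.P157.gam (Fin N)) ⌊α * N⌋₊
    (fun _ => (1 / 2 : ℝ) ^ N) (fun _ => by positivity)]
  rw [integral_const_mul, one_div, div_eq_inv_mul]
  congr 1
  have hm : patterns ⌊α * N⌋₊ N
      = Measure.pi fun _ : Fin ⌊α * N⌋₊ => _root_.P157.gam (Fin N) := rfl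
  rw [hm]
  refine integral_congr_ae (Filter.Eventually.of_forall fun g => ?_)
  simp only
  unfold _root_.P157.L Z
  congr 1
  rw [Finset.sum_div]
  refine Finset.sum_congr rfl fun x _ => ?_
  rw [Real.exp_sum, div_eq_mul_inv, mul_comm, one_div, inv_pow]
  congr 1
  refine Finset.prod_congr rfl fun a _ => ?_
  rw [Real.exp_log (hpos _)]
  rfl

/-- quadratic identity for the split of the cube -/
theorem QF_cube (m n : ℕ) (hm : 0 < m) (hn : 0 < n) :
    _root_.P157.QF (X := Fin (m + n) → Bool) ((m : ℝ) / (m + n)) ((n : ℝ) / (m + n))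
      (fun x i => _root_.P157.sp (x i) / Real.sqrt ((m + n : ℕ) : ℝ))
      (fun x i => _root_.P157.sp (x (Fin.castAdd n i)) / Real.sqrt m)
      (fun x j => _root_.P157.sp (x (Fin.natAdd m j)) / Real.sqrt n) := by
  have hm' : (0 : ℝ) < m := by exact_mod_cast hm
  have hn' : (0 : ℝ) < n := by exact_mod_cast hn
  intro k x ξ
  have hsq : ∀ (N : ℕ) (t : Fin k → ℝ), (∑ l, ξ l * (t l / Real.sqrt N)) ^ 2
      = (∑ l, ξ l * t l) ^ 2 / N := by
    intro N t
    have e : ∑ l, ξ l * (t l / Real.sqrt N) = (∑ l, ξ l * t l) / Real.sqrt N := by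
      rw [Finset.sum_div]
      exact Finset.sum_congr rfl fun l _ => by ring
    rw [e, div_pow, Real.sq_sqrt (Nat.cast_nonneg N)]
  simp only [hsq]
  rw [Fin.sum_univ_add, ← Finset.sum_div, ← Finset.sum_div, ← Finset.sum_div, ← Finset.sum_div]
  push_cast
  field_simp

theorem one_cube (c : ℝ) (ν : Measure ℝ) [IsFiniteMeasure ν] (hc : ν.real Set.univ < c) :
    _root_.P157.One (fun t => c - _root_.P157.phi ν t) := by
  intro m n hm hn w hw
  have hm' : (0 : ℝ) < m := by exact_mod_cast hm
  have hn' : (0 : ℝ) < n := by exact_mod_cast hn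
  have hpq : (m : ℝ) / (m + n) + (n : ℝ) / (m + n) = 1 := by field_simp
  have h := _root_.P157.one_constraint c ν hc
    (fun (x : Fin (m + n) → Bool) i => _root_.P157.sp (x i) / Real.sqrt ((m + n : ℕ) : ℝ))
    (fun x i => _root_.P157.sp (x (Fin.castAdd n i)) / Real.sqrt m)
    (fun x j => _root_.P157.sp (x (Fin.natAdd m j)) / Real.sqrt n)
    (by positivity) (by positivity) hpq (QF_cube m n hm hn) w hw
  have e : ∀ (N : ℕ) (g t : Fin N → ℝ),
      (∑ i, g i * (t i / Real.sqrt N)) = (∑ i, g i * t i) / Real.sqrt N := by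
    intro N g t
    rw [Finset.sum_div]
    exact Finset.sum_congr rfl fun i _ => by ring
  have e0 : _root_.P157.Vf c ν
      (fun (x : Fin (m + n) → Bool) i => _root_.P157.sp (x i) / Real.sqrt ((m + n : ℕ) : ℝ))
      = _root_.P157.VU (fun t => c - _root_.P157.phi ν t) (m + n) := by
    funext g x
    unfold _root_.P157.Vf _root_.P157.VU
    rw [e]
  have e1 : _root_.P157.Vf c ν
      (fun (x : Fin (m + n) → Bool) i => _root_.P157.sp (x (Fin.castAdd n i)) / Real.sqrt m)
      = fun (g : Fin m → ℝ) (x : Fin (m + n) → Bool) =>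
          _root_.P157.VU (fun t => c - _root_.P157.phi ν t) m g
          fun i => x (Fin.castAdd n i) := by
    funext g x
    unfold _root_.P157.Vf _root_.P157.VU
    rw [e]
  have e2 : _root_.P157.Vf c ν
      (fun (x : Fin (m + n) → Bool) j => _root_.P157.sp (x (Fin.natAdd m j)) / Real.sqrt n)
      = fun (g : Fin n → ℝ) (x : Fin (m + n) → Bool) =>
          _root_.P157.VU (fun t => c - _root_.P157.phi ν t) n g
          fun j => x (Fin.natAdd m j) := by
    funext g x
    unfold _root_.P157.Vf _root_.P157.VU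
    rw [e]
  rw [e0, e1, e2] at h
  exact h

/-- Let `ν` be a finite Borel measure on `ℝ`, `c > ν(ℝ)` and
`f(t) = log (c - ∫ cos (ξ t) dν(ξ))` (a bounded Borel function).  Then for every `α > 0` the
expected pressure `E p_N(f)` of the Ising perceptron converges as `N → ∞`; moreover
`E p_N(f) ≤ lim + K / √N` for a constant `K`. -/
theorem result (ν : Measure ℝ) [IsFiniteMeasure ν] (c : ℝ) (hc : ν.real Set.univ < c) :
    Measurable (potential c ν) ∧ (∃ B : ℝ, ∀ t, |potential c ν t| ≤ B) ∧
    ∀ α : ℝ, 0 < α → ∃ l : ℝ, Tendsto (meanPressure (potential c ν) α) atTop (𝓝 l) ∧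
      ∃ K : ℝ, ∀ N : ℕ, 0 < N →
        meanPressure (potential c ν) α N ≤ l + K / Real.sqrt N := by
  set U : ℝ → ℝ := fun t => c - _root_.P157.phi ν t with hU
  have hUc : Continuous U := continuous_const.sub (_root_.P157.phi_cont ν)
  have hν : 0 ≤ ν.real Set.univ := measureReal_nonneg
  set a : ℝ := c - ν.real Set.univ with ha
  have ha0 : 0 < a := by rw [ha]; linarith
  set b : ℝ := c + ν.real Set.univ with hb
  have hb0 : 0 < b := by rw [hb]; linarith
  have hUa : ∀ t, a ≤ U t := fun t => by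
    have := (abs_le.1 (_root_.P157.phi_abs ν t)).2
    simp only [hU, ha]
    linarith
  have hUb : ∀ t, U t ≤ b := fun t => by
    have := (abs_le.1 (_root_.P157.phi_abs ν t)).1
    simp only [hU, hb]
    linarith
  set C : ℝ := max |Real.log a| |Real.log b| with hC
  have hC0 : 0 ≤ C := le_trans (abs_nonneg _) (le_max_left _ _)
  have h1 : ∀ t, Real.exp (-C) ≤ U t := fun t => by
    refine le_trans ?_ (hUa t)
    rw [← Real.exp_log ha0, Real.exp_le_exp]
    have : |Real.log a| ≤ C := le_max_left _ _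
    linarith [neg_abs_le (Real.log a)]
  have h2 : ∀ t, U t ≤ Real.exp C := fun t => by
    refine le_trans (hUb t) ?_
    rw [← Real.exp_log hb0, Real.exp_le_exp]
    exact le_trans (le_abs_self _) (le_max_right _ _)
  have hpot : potential c ν = fun t => Real.log (U t) := rfl
  refine ⟨?_, ⟨C, fun t => ?_⟩, fun α hα => ?_⟩
  · rw [hpot]
    exact Real.measurable_log.comp hUc.measurable
  · rw [hpot]
    simp only
    rw [abs_le]
    have hpos : 0 < U t := lt_of_lt_of_le (Real.exp_pos _) (h1 t)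
    constructor
    · have := Real.log_le_log (Real.exp_pos _) (h1 t)
      rwa [Real.log_exp] at this
    · have := Real.log_le_log hpos (h2 t)
      rwa [Real.log_exp] at this
  · obtain ⟨l, hl, hK⟩ := _root_.P157.limit_of_One hUc.measurable hC0 h1 h2 (one_cube c ν hc) hα
    have e : meanPressure (potential c ν) α = fun N : ℕ => _root_.P157.aN U α N / N := by
      funext N
      rw [hpot]
      exact meanPressure_eq hUc.measurable h1 h2 α N
    rw [e]
    exact ⟨l, hl, _, hK⟩

end Vale.Agent.Results.P157.LimitExists
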